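import Vale.Agent.Lib.P335_helper12.TupleMixing
import Vale.Agent.Lib.P335_helper3.GTwo
import Vale.Agent.Lib.P335_helper16.GConn

/-!
P335 (helper12): bridge between the slot set level (`P335G`, states are finsets of `Sym2 (Fin n)`)
and the statement level (`Omega d`, `applyMove`).
-/

namespace P335h14

open Finset

section Bridge
variable {n : ℕ}

open Classical in
/-- the slot set of a graph -/
noncomputable def toX (G : SimpleGraph (Fin n)) : Finset (Sym2 (Fin n)) :=
  univ.filter (fun e => e ∈ G.edgeSet)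

theorem mem_toX {G : SimpleGraph (Fin n)} {e : Sym2 (Fin n)} : e ∈ toX G ↔ e ∈ G.edgeSet := by
  simp [toX]

/-- the graph of a slot set -/
def toG (x : Finset (Sym2 (Fin n))) : SimpleGraph (Fin n) :=
  SimpleGraph.fromEdgeSet (x : Set (Sym2 (Fin n)))

theorem toG_toX (G : SimpleGraph (Fin n)) : toG (toX G) = G := by
  ext u v
  simp only [toG, SimpleGraph.fromEdgeSet_adj, Finset.mem_coe, mem_toX, SimpleGraph.mem_edgeSet]
  exact ⟨fun h => h.1, fun h => ⟨h, h.ne⟩⟩

theorem toX_toG {x : Finset (Sym2 (Fin n))} (h : ∀ e ∈ x, ¬ e.IsDiag) : toX (toG x) = x := by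
  ext e
  rw [mem_toX]
  induction e using Sym2.ind with
  | _ u v =>
    simp only [toG, SimpleGraph.mem_edgeSet, SimpleGraph.fromEdgeSet_adj, Finset.mem_coe]
    constructor
    · exact fun h1 => h1.1
    · intro h1
      refine ⟨h1, ?_⟩
      have := h _ h1
      rwa [Sym2.mk_isDiag_iff] at this

theorem toX_not_diag (G : SimpleGraph (Fin n)) : ∀ e ∈ toX G, ¬ e.IsDiag := by
  intro e he
  rw [mem_toX] at he
  exact G.not_isDiag_of_mem_edgeSet he

theorem deg_toX (G : SimpleGraph (Fin n)) (v : Fin n) :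
    P335G.deg (toX G) v = (G.neighborSet v).ncard := by
  classical
  unfold P335G.deg
  rw [← Set.ncard_coe_finset]
  symm
  apply Set.ncard_congr (fun c _ => s(v, c))
  · intro c hc
    simp only [Finset.coe_filter, Set.mem_ofPred_eq, mem_toX, SimpleGraph.mem_edgeSet]
    exact ⟨hc, Sym2.mem_mk_left v c⟩
  · intro a b _ _ h
    exact Sym2.congr_right.mp h
  · intro e he
    simp only [Finset.coe_filter, Set.mem_ofPred_eq, mem_toX] at he
    obtain ⟨he1, he2⟩ := he
    obtain ⟨c, rfl⟩ := he2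
    exact ⟨c, he1, rfl⟩

/-- slot sets of the graphs of `Omega d` -/
def GoodX (d : Fin n → ℕ) (x : Finset (Sym2 (Fin n))) : Prop :=
  (∀ e ∈ x, ¬ e.IsDiag) ∧ ∀ v, P335G.deg x v = d v

instance (d : Fin n → ℕ) : DecidablePred (GoodX d) := fun x => by
  unfold GoodX; infer_instance

theorem goodX_toX (d : Fin n → ℕ) (G : Omega d) : GoodX d (toX G.1) :=
  ⟨toX_not_diag G.1, fun v => by rw [deg_toX]; exact G.2 v⟩

theorem toG_mem (d : Fin n → ℕ) {x : Finset (Sym2 (Fin n))} (h : GoodX d x) :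
    ∀ v, ((toG x).neighborSet v).ncard = d v := by
  intro v
  rw [← deg_toX, toX_toG h.1]
  exact h.2 v

/-- sums over good slot sets are sums over `Omega d` -/
theorem sum_goodX (d : Fin n → ℕ) (φ : Finset (Sym2 (Fin n)) → ℝ) :
    ∑ x ∈ univ.filter (GoodX d), φ x = ∑ G : Omega d, φ (toX G.1) := by
  symm
  refine Finset.sum_bij' (fun (G : Omega d) _ => toX G.1)
    (fun x hx => (⟨toG x, toG_mem d (Finset.mem_filter.mp hx).2⟩ : Omega d)) ?_ ?_ ?_ ?_ ?_
  · intro G _
    exact Finset.mem_filter.mpr ⟨Finset.mem_univ _, goodX_toX d G⟩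
  · intro x _
    exact Finset.mem_univ _
  · intro G _
    exact Subtype.ext (toG_toX G.1)
  · intro x hx
    exact toX_toG (Finset.mem_filter.mp hx).2.1
  · intro G _
    rfl

theorem mem_gsw' {x : Finset (Sym2 (Fin n))} {u v k l : Fin n} {e : Sym2 (Fin n)} :
    e ∈ P335G.gsw x u v k l ↔
      (e ∈ x ∧ e ≠ s(u, k) ∧ e ≠ s(v, l)) ∨ e = s(u, l) ∨ e = s(v, k) := by
  simp only [P335G.gsw, Finset.mem_union, Finset.mem_sdiff, Finset.mem_insert,
    Finset.mem_singleton, not_or]

theorem gsw_rev {x : Finset (Sym2 (Fin n))} {u v k l : Fin n} (h : P335G.SwOK x u v k l) :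
    P335G.SwOK (P335G.gsw x u v k l) u v l k ∧ P335G.gsw (P335G.gsw x u v k l) u v l k = x := by
  obtain ⟨⟨huv, huk, hul, hvk, hvl, hkl⟩, h1, h2, h3, h4⟩ := h
  refine ⟨⟨⟨huv, hul, huk, hvl, hvk, hkl.symm⟩, ?_, ?_, ?_, ?_⟩, ?_⟩
  · rw [mem_gsw']; right; left; rfl
  · rw [mem_gsw']; right; right; rfl
  · rw [mem_gsw']
    rintro (h5 | h5 | h5)
    · exact h5.2.1 rfl
    · rw [Sym2.eq_iff] at h5
      rcases h5 with ⟨_, h6⟩ | ⟨h6, _⟩
      · exact hkl h6
      · exact hul h6
    · rw [Sym2.eq_iff] at h5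
      rcases h5 with ⟨h6, _⟩ | ⟨h6, _⟩
      · exact huv h6
      · exact huk h6
  · rw [mem_gsw']
    rintro (h5 | h5 | h5)
    · exact h5.2.2 rfl
    · rw [Sym2.eq_iff] at h5
      rcases h5 with ⟨h6, _⟩ | ⟨h6, _⟩
      · exact huv h6.symm
      · exact hvl h6
    · rw [Sym2.eq_iff] at h5
      rcases h5 with ⟨_, h6⟩ | ⟨h6, _⟩
      · exact hkl h6.symm
      · exact hvk h6
  · ext e
    rw [mem_gsw', mem_gsw']
    constructor
    · rintro (⟨h7, h5, h6⟩ | rfl | rfl)
      · rcases h7 with h7 | h7 | h7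
        · exact h7.1
        · exact absurd h7 h5
        · exact absurd h7 h6
      · exact h1
      · exact h2
    · intro he
      by_cases e1 : e = s(u, k)
      · right; left; exact e1
      by_cases e2 : e = s(v, l)
      · right; right; exact e2
      left
      refine ⟨Or.inl ⟨he, e1, e2⟩, ?_, ?_⟩
      · rintro rfl; exact h3 he
      · rintro rfl; exact h4 he

theorem mem_edgeSet_applyMove (G : SimpleGraph (Fin n)) (F F' : Finset (Sym2 (Fin n)))
    (h : (∀ e ∈ F, e ∈ G.edgeSet) ∧ (∀ e ∈ F', e ∉ G.edgeSet)) (e : Sym2 (Fin n)) :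
    e ∈ (applyMove G F F').edgeSet ↔ (e ∈ G.edgeSet ∧ e ∉ F) ∨ (e ∈ F' ∧ ¬ e.IsDiag) := by
  induction e using Sym2.ind with
  | _ p q =>
    rw [SimpleGraph.mem_edgeSet, applyMove_adj G F F' h, SimpleGraph.mem_edgeSet, Sym2.mk_isDiag_iff]

theorem gsw_toX (G : SimpleGraph (Fin n)) {u v k l : Fin n} (h : P335G.SwOK (toX G) u v k l) :
    P335G.gsw (toX G) u v k l = toX (applyMove G (pmOf u k l v).1 (pmOf u k l v).2) := by
  obtain ⟨⟨huv, huk, hul, hvk, hvl, hkl⟩, h1, h2, h3, h4⟩ := h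
  rw [mem_toX] at h1 h2 h3 h4
  have hcond : (∀ e ∈ (pmOf u k l v).1, e ∈ G.edgeSet) ∧ (∀ e ∈ (pmOf u k l v).2, e ∉ G.edgeSet) := by
    constructor
    · intro e he
      simp only [pmOf, Finset.mem_insert, Finset.mem_singleton] at he
      rcases he with rfl | rfl
      · exact h1
      · rw [Sym2.eq_swap]; exact h2
    · intro e he
      simp only [pmOf, Finset.mem_insert, Finset.mem_singleton] at he
      rcases he with rfl | rfl
      · exact h3
      · rw [Sym2.eq_swap]; exact h4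
  ext e
  rw [mem_gsw', mem_toX, mem_toX, mem_edgeSet_applyMove G _ _ hcond]
  simp only [pmOf, Finset.mem_insert, Finset.mem_singleton, not_or]
  have hs1 : s(l, v) = s(v, l) := Sym2.eq_swap
  have hs2 : s(k, v) = s(v, k) := Sym2.eq_swap
  rw [hs1, hs2]
  constructor
  · rintro (h5 | rfl | rfl)
    · left; exact h5
    · right
      exact ⟨Or.inl rfl, by rw [Sym2.mk_isDiag_iff]; exact hul⟩
    · right
      exact ⟨Or.inr rfl, by rw [Sym2.mk_isDiag_iff]; exact hvk⟩
  · rintro (h5 | ⟨h5 | h5, _⟩)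
    · left; exact h5
    · right; left; exact h5
    · right; right; exact h5

theorem dist4_of_swOK {x : Finset (Sym2 (Fin n))} {u v k l : Fin n} (h : P335G.SwOK x u v k l) :
    Dist4 u k l v := by
  obtain ⟨⟨huv, huk, hul, hvk, hvl, hkl⟩, -⟩ := h
  exact ⟨huk, hul, huv, hkl, hvk.symm, hvl.symm⟩

theorem goodX_gsw (d : Fin n → ℕ) {x : Finset (Sym2 (Fin n))} {u v k l : Fin n}
    (h : P335G.SwOK x u v k l) (hx : GoodX d x) : GoodX d (P335G.gsw x u v k l) := by
  have hx' : x = toX (toG x) := (toX_toG hx.1).symm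
  rw [hx'] at h ⊢
  rw [gsw_toX _ h]
  have hd := dist4_of_swOK h
  exact goodX_toX d ⟨_, applyMove_degree d ⟨toG x, toG_mem d hx⟩ (pmOf_mem hd)⟩

theorem goodX_gsw_iff (d : Fin n → ℕ) {x : Finset (Sym2 (Fin n))} {u v k l : Fin n}
    (h : P335G.SwOK x u v k l) : GoodX d (P335G.gsw x u v k l) ↔ GoodX d x := by
  constructor
  · intro hy
    have := goodX_gsw d (gsw_rev h).1 hy
    rwa [(gsw_rev h).2] at this
  · exact goodX_gsw d h

/-- extension by zero of a function on graphs to slot sets -/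
noncomputable def fX (d : Fin n → ℕ) (F : SimpleGraph (Fin n) → ℝ) (x : Finset (Sym2 (Fin n))) : ℝ :=
  if GoodX d x then F (toG x) else 0

theorem fX_toX (d : Fin n → ℕ) (F : SimpleGraph (Fin n) → ℝ) (G : Omega d) :
    fX d F (toX G.1) = F G.1 := by
  unfold fX
  rw [if_pos (goodX_toX d G), toG_toX]

theorem good_of_rel (d : Fin n → ℕ) {A x y : Finset (Sym2 (Fin n))} (hA : ∀ e, e ∈ A ↔ ¬ e.IsDiag)
    (h : P335G.GRel A x y) (hx : GoodX d x) : GoodX d y := by
  refine ⟨?_, fun v => by rw [← h.2 v]; exact hx.2 v⟩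
  intro e he hdiag
  have heA : e ∉ A := fun h1 => (hA e).mp h1 hdiag
  have : e ∈ y \ A := Finset.mem_sdiff.mpr ⟨he, heA⟩
  rw [← h.1] at this
  exact hx.1 e (Finset.mem_sdiff.mp this).1 hdiag

theorem rel_of_good (d : Fin n → ℕ) {A x y : Finset (Sym2 (Fin n))} (hA : ∀ e, e ∈ A ↔ ¬ e.IsDiag)
    (hx : GoodX d x) (hy : GoodX d y) : P335G.GRel A x y := by
  refine ⟨?_, fun v => by rw [hx.2 v, hy.2 v]⟩
  have h1 : x \ A = ∅ := by
    rw [Finset.sdiff_eq_empty_iff_subset]
    exact fun e he => (hA e).mpr (hx.1 e he)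
  have h2 : y \ A = ∅ := by
    rw [Finset.sdiff_eq_empty_iff_subset]
    exact fun e he => (hA e).mpr (hy.1 e he)
  rw [h1, h2]

theorem avg_fX (d : Fin n → ℕ) (F : SimpleGraph (Fin n) → ℝ) (hF : ∑ G : Omega d, F G.1 = 0)
    {A : Finset (Sym2 (Fin n))} (hA : ∀ e, e ∈ A ↔ ¬ e.IsDiag) :
    avg (P335G.GRel A) (fX d F) = 0 := by
  funext x
  unfold avg
  have hnum : ∑ y ∈ univ.filter (fun y => P335G.GRel A x y), fX d F y = 0 := by
    by_cases hx : GoodX d x
    · have hfil : univ.filter (fun y => P335G.GRel A x y) = univ.filter (GoodX d) := by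
        ext y
        simp only [Finset.mem_filter, Finset.mem_univ, true_and]
        exact ⟨fun h => good_of_rel d hA h hx, fun hy => rel_of_good d hA hx hy⟩
      rw [hfil, sum_goodX]
      simp only [fX_toX]
      exact hF
    · apply Finset.sum_eq_zero
      intro y hy
      have hrel := (Finset.mem_filter.mp hy).2
      unfold fX
      rw [if_neg]
      intro hy'
      exact hx (good_of_rel d hA ((P335G.GRel.equiv A).symm hrel) hy')
  rw [hnum, zero_div]
  rfl

theorem ip_fX (d : Fin n → ℕ) (F : SimpleGraph (Fin n) → ℝ) :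
    ip (fX d F) (fX d F) = ∑ G : Omega d, F G.1 ^ 2 := by
  unfold ip
  have h1 : ∑ x, fX d F x * fX d F x = ∑ x ∈ univ.filter (GoodX d), fX d F x * fX d F x := by
    rw [Finset.sum_filter]
    apply Finset.sum_congr rfl
    intro x _
    by_cases hx : GoodX d x
    · rw [if_pos hx]
    · rw [if_neg hx]; unfold fX; rw [if_neg hx]; ring
  rw [h1, sum_goodX]
  apply Finset.sum_congr rfl
  intro G _
  rw [fX_toX]; ring

/-- one term of the slot level Dirichlet form -/
theorem term_le (d : Fin n → ℕ) (F : SimpleGraph (Fin n) → ℝ) (G : Omega d) (u v k l : Fin n) :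
    (if P335G.SwOK (toX G.1) u v k l then
        (fX d F (P335G.gsw (toX G.1) u v k l) - fX d F (toX G.1)) ^ 2 else 0)
      ≤ (if Dist4 u k l v then
        (F (applyMove G.1 (pmOf u k l v).1 (pmOf u k l v).2) - F G.1) ^ 2 else 0) := by
  by_cases h : P335G.SwOK (toX G.1) u v k l
  · have hd := dist4_of_swOK h
    rw [if_pos h, if_pos hd, gsw_toX _ h, fX_toX]
    have := fX_toX d F ⟨_, applyMove_degree d G (pmOf_mem hd)⟩
    rw [this]
  · rw [if_neg h]
    split_ifs
    · exact sq_nonneg _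
    · exact le_refl _

theorem term_zero (d : Fin n → ℕ) (F : SimpleGraph (Fin n) → ℝ) {x : Finset (Sym2 (Fin n))}
    (hx : ¬ GoodX d x) (u v k l : Fin n) :
    (if P335G.SwOK x u v k l then
        (fX d F (P335G.gsw x u v k l) - fX d F x) ^ 2 else 0) = 0 := by
  by_cases h : P335G.SwOK x u v k l
  · rw [if_pos h]
    have h2 : ¬ GoodX d (P335G.gsw x u v k l) := fun h3 => hx ((goodX_gsw_iff d h).mp h3)
    unfold fX
    rw [if_neg hx, if_neg h2]
    ring
  · rw [if_neg h]

theorem gdir_fX_le (d : Fin n → ℕ) (F : SimpleGraph (Fin n) → ℝ) :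
    P335G.gdir (fX d F) ≤ ∑ G : Omega d, ∑ a : Fin n, ∑ b : Fin n, ∑ c : Fin n, ∑ e : Fin n,
        (if Dist4 a b c e then
          (F (applyMove G.1 (pmOf a b c e).1 (pmOf a b c e).2) - F G.1) ^ 2 else 0) := by
  unfold P335G.gdir P335G.gdir2
  -- bring the sum over states to the front
  have h1 : ∑ u : Fin n, ∑ v : Fin n, ∑ x : P335G.St (Fin n), ∑ k : Fin n, ∑ l : Fin n,
      (if P335G.SwOK x u v k l then (fX d F (P335G.gsw x u v k l) - fX d F x) ^ 2 else 0)
      = ∑ x : P335G.St (Fin n), ∑ u : Fin n, ∑ k : Fin n, ∑ l : Fin n, ∑ v : Fin n,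
      (if P335G.SwOK x u v k l then (fX d F (P335G.gsw x u v k l) - fX d F x) ^ 2 else 0) := by
    calc _ = ∑ u : Fin n, ∑ x : P335G.St (Fin n), ∑ v : Fin n, ∑ k : Fin n, ∑ l : Fin n,
      (if P335G.SwOK x u v k l then (fX d F (P335G.gsw x u v k l) - fX d F x) ^ 2 else 0) := by
          apply Finset.sum_congr rfl; intro u _; exact Finset.sum_comm
      _ = ∑ x : P335G.St (Fin n), ∑ u : Fin n, ∑ v : Fin n, ∑ k : Fin n, ∑ l : Fin n,
      (if P335G.SwOK x u v k l then (fX d F (P335G.gsw x u v k l) - fX d F x) ^ 2 else 0) :=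
          Finset.sum_comm
      _ = ∑ x : P335G.St (Fin n), ∑ u : Fin n, ∑ k : Fin n, ∑ v : Fin n, ∑ l : Fin n,
      (if P335G.SwOK x u v k l then (fX d F (P335G.gsw x u v k l) - fX d F x) ^ 2 else 0) := by
          apply Finset.sum_congr rfl; intro x _
          apply Finset.sum_congr rfl; intro u _
          exact Finset.sum_comm
      _ = _ := by
          apply Finset.sum_congr rfl; intro x _
          apply Finset.sum_congr rfl; intro u _
          apply Finset.sum_congr rfl; intro k _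
          exact Finset.sum_comm
  rw [h1]
  have h2 : ∑ x : P335G.St (Fin n), ∑ u : Fin n, ∑ k : Fin n, ∑ l : Fin n, ∑ v : Fin n,
      (if P335G.SwOK x u v k l then (fX d F (P335G.gsw x u v k l) - fX d F x) ^ 2 else 0)
      = ∑ x ∈ univ.filter (GoodX d), ∑ u : Fin n, ∑ k : Fin n, ∑ l : Fin n, ∑ v : Fin n,
      (if P335G.SwOK x u v k l then (fX d F (P335G.gsw x u v k l) - fX d F x) ^ 2 else 0) := by
    rw [Finset.sum_filter]
    apply Finset.sum_congr rfl
    intro x _
    by_cases hx : GoodX d x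
    · rw [if_pos hx]
    · rw [if_neg hx]
      apply Finset.sum_eq_zero; intro u _
      apply Finset.sum_eq_zero; intro k _
      apply Finset.sum_eq_zero; intro l _
      apply Finset.sum_eq_zero; intro v _
      exact term_zero d F hx u v k l
  rw [h2, sum_goodX d (fun x => ∑ u : Fin n, ∑ k : Fin n, ∑ l : Fin n, ∑ v : Fin n,
      (if P335G.SwOK x u v k l then (fX d F (P335G.gsw x u v k l) - fX d F x) ^ 2 else 0))]
  apply Finset.sum_le_sum; intro G _
  apply Finset.sum_le_sum; intro u _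
  apply Finset.sum_le_sum; intro k _
  apply Finset.sum_le_sum; intro l _
  apply Finset.sum_le_sum; intro v _
  exact term_le d F G u v k l

/-- from the slot level Poincare inequality to the mixing time bound -/
theorem mixing_of_g_poincare (hn : 4 ≤ n)
    (hP : ∀ f : P335G.St (Fin n) → ℝ,
      8 * ip (f - avg (P335G.GRel (P335h16.allSlots (Fin n))) f)
        (f - avg (P335G.GRel (P335h16.allSlots (Fin n))) f) ≤ P335G.gdir f)
    (d : Fin n → ℕ) (t : ℕ) (ht : 256 * (n : ℝ) ^ 6 ≤ t) (G : Omega d) :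
    tvDist d t G ≤ 1 / 4 := by
  apply mixing_of_tuple_poincare hn d 1 (le_refl _) _ t (by linarith) G
  intro F hF
  have hA : ∀ e : Sym2 (Fin n), e ∈ P335h16.allSlots (Fin n) ↔ ¬ e.IsDiag := by
    intro e
    simp [P335h16.allSlots]
  have h1 := hP (fX d F)
  rw [avg_fX d F hF hA, sub_zero, ip_fX] at h1
  have h2 := gdir_fX_le d F
  have h3 : 0 ≤ ∑ G : Omega d, F G.1 ^ 2 := Finset.sum_nonneg (fun _ _ => sq_nonneg _)
  linarith

end Bridge

end P335h14
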