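import Vale.Agent.Lib.P335_helper12.Tuples

namespace P335h14

open Finset

section TupleMixing
variable {n : ℕ}

theorem choose_four_le (n : ℕ) : 24 * (n.choose 4 : ℝ) ≤ (n : ℝ) ^ 4 := by
  have h1 : n.choose 4 * Nat.factorial 4 ≤ n ^ 4 := by
    have h2 : n.choose 4 * Nat.factorial 4 = n.descFactorial 4 := by
      rw [Nat.descFactorial_eq_factorial_mul_choose]; ring
    rw [h2]
    exact Nat.descFactorial_le_pow n 4
  have h3 : (Nat.factorial 4) = 24 := by decide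
  rw [h3] at h1
  have : ((n.choose 4 * 24 : ℕ) : ℝ) ≤ ((n ^ 4 : ℕ) : ℝ) := by exact_mod_cast h1
  push_cast at this
  linarith

theorem choose_two_add_le (n : ℕ) (hn : 4 ≤ n) : (n.choose 2 : ℝ) + 2 ≤ (n : ℝ) ^ 2 := by
  have h1 : n.choose 2 + 2 ≤ n ^ 2 := by
    rw [Nat.choose_two_right]
    have : n * (n - 1) / 2 ≤ n * (n - 1) := Nat.div_le_self _ _
    obtain ⟨m, rfl⟩ : ∃ m, n = m + 4 := ⟨n - 4, by omega⟩
    have h2 : (m + 4) * (m + 4 - 1) = (m + 4) * (m + 3) := by congr 1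
    rw [h2] at this ⊢
    nlinarith
  have : ((n.choose 2 + 2 : ℕ) : ℝ) ≤ ((n ^ 2 : ℕ) : ℝ) := by exact_mod_cast h1
  push_cast at this
  exact this

/-- Poincare inequality in terms of ordered 4-tuples ⟹ `t_mix ≤ 256 κ n^6`. -/
theorem mixing_of_tuple_poincare (hn : 4 ≤ n) (d : Fin n → ℕ) (κ : ℝ) (hκ : 1 ≤ κ)
    (hP : ∀ f : SimpleGraph (Fin n) → ℝ, ∑ G : Omega d, f G.1 = 0 →
      ∑ G : Omega d, f G.1 ^ 2 ≤ κ * ∑ G : Omega d, ∑ a : Fin n, ∑ b : Fin n, ∑ c : Fin n, ∑ e : Fin n,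
        (if Dist4 a b c e then
          (f (applyMove G.1 (pmOf a b c e).1 (pmOf a b c e).2) - f G.1) ^ 2 else 0))
    (t : ℕ) (ht : 256 * κ * (n : ℝ) ^ 6 ≤ t) (G : Omega d) :
    tvDist d t G ≤ 1 / 4 := by
  have hC1 : (1 : ℝ) ≤ (n.choose 4 : ℝ) := by
    have : 0 < n.choose 4 := Nat.choose_pos hn
    exact_mod_cast this
  apply mixing_of_moves_poincare hn d (256 * κ)
  · nlinarith
  · intro f hf
    refine (hP f hf).trans ?_
    have h1 : ∀ G : Omega d, ∑ a : Fin n, ∑ b : Fin n, ∑ c : Fin n, ∑ e : Fin n,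
        (if Dist4 a b c e then
          (f (applyMove G.1 (pmOf a b c e).1 (pmOf a b c e).2) - f G.1) ^ 2 else 0)
        ≤ 256 * ∑ S ∈ powersetCard 4 (univ : Finset (Fin n)),
          ∑ p ∈ pmPairs S, (f (applyMove G.1 p.1 p.2) - f G.1) ^ 2 := by
      intro G
      exact sum_tuples_le (fun _ p => (f (applyMove G.1 p.1 p.2) - f G.1) ^ 2)
        (fun _ _ => sq_nonneg _)
    calc κ * ∑ G : Omega d, ∑ a : Fin n, ∑ b : Fin n, ∑ c : Fin n, ∑ e : Fin n,
        (if Dist4 a b c e then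
          (f (applyMove G.1 (pmOf a b c e).1 (pmOf a b c e).2) - f G.1) ^ 2 else 0)
        ≤ κ * ∑ G : Omega d, 256 * ∑ S ∈ powersetCard 4 (univ : Finset (Fin n)),
          ∑ p ∈ pmPairs S, (f (applyMove G.1 p.1 p.2) - f G.1) ^ 2 := by
          apply mul_le_mul_of_nonneg_left _ (by linarith)
          exact Finset.sum_le_sum (fun G _ => h1 G)
      _ = 256 * κ * ∑ G : Omega d, ∑ S ∈ powersetCard 4 (univ : Finset (Fin n)),
          ∑ p ∈ pmPairs S, (f (applyMove G.1 p.1 p.2) - f G.1) ^ 2 := by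
          rw [← Finset.mul_sum]; ring
  · refine le_trans ?_ ht
    have h4 := choose_four_le n
    have h2 := choose_two_add_le n hn
    have h5 : (0 : ℝ) ≤ (n.choose 2 : ℝ) + 2 := by positivity
    have h6 : (0 : ℝ) ≤ (n : ℝ) ^ 4 := by positivity
    calc 24 * (256 * κ) * (n.choose 4 : ℝ) * ((n.choose 2 : ℝ) + 2)
        = 256 * κ * ((24 * (n.choose 4 : ℝ)) * ((n.choose 2 : ℝ) + 2)) := by ring
      _ ≤ 256 * κ * ((n : ℝ) ^ 4 * (n : ℝ) ^ 2) := by
          apply mul_le_mul_of_nonneg_left _ (by linarith)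
          exact mul_le_mul h4 h2 h5 h6
      _ = 256 * κ * (n : ℝ) ^ 6 := by ring

end TupleMixing

end P335h14
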