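import Vale.Agent.Lib.P335_helper14.Chain

namespace P335h14

open Finset

section Tuples
variable {n : ℕ}

/-- the four vertices are pairwise distinct -/
def Dist4 (a b c e : Fin n) : Prop := a ≠ b ∧ a ≠ c ∧ a ≠ e ∧ b ≠ c ∧ b ≠ e ∧ c ≠ e

instance (a b c e : Fin n) : Decidable (Dist4 a b c e) := by unfold Dist4; infer_instance

/-- the ordered pair of perfect matchings `({ab, ce}, {ac, be})` -/
def pmOf (a b c e : Fin n) : Finset (Sym2 (Fin n)) × Finset (Sym2 (Fin n)) :=
  ({s(a, b), s(c, e)}, {s(a, c), s(b, e)})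

theorem card_four {a b c e : Fin n} (h : Dist4 a b c e) : ({a, b, c, e} : Finset (Fin n)).card = 4 := by
  obtain ⟨hab, hac, hae, hbc, hbe, hce⟩ := h
  rw [Finset.card_insert_of_notMem, Finset.card_insert_of_notMem, Finset.card_insert_of_notMem,
    Finset.card_singleton]
  · simpa using hce
  · simp only [Finset.mem_insert, Finset.mem_singleton, not_or]; exact ⟨hbc, hbe⟩
  · simp only [Finset.mem_insert, Finset.mem_singleton, not_or]; exact ⟨hab, hac, hae⟩

theorem pmOf_mem {a b c e : Fin n} (h : Dist4 a b c e) : pmOf a b c e ∈ pmPairs {a, b, c, e} := by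
  classical
  obtain ⟨hab, hac, hae, hbc, hbe, hce⟩ := h
  simp only [pmPairs, pmOf, Finset.mem_filter, Finset.mem_univ, true_and]
  have hS2 : ({a, b, c, e} : Finset (Fin n)) = {a, c, b, e} := by
    ext x; simp only [Finset.mem_insert, Finset.mem_singleton]; tauto
  refine ⟨isPM_pair hab hac hae hbc hbe hce, ?_, ?_⟩
  · rw [hS2]; exact isPM_pair hac hab hae hbc.symm hce hbe
  · intro h
    have : s(a, b) ∈ ({s(a, c), s(b, e)} : Finset (Sym2 (Fin n))) := by rw [← h]; simp
    simp only [Finset.mem_insert, Finset.mem_singleton, Sym2.eq_iff] at this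
    rcases this with (⟨_, h⟩ | ⟨h, _⟩) | (⟨h, _⟩ | ⟨h, _⟩)
    · exact hbc h
    · exact hac h
    · exact hab h
    · exact hae h

/-- A sum over ordered 4-tuples of distinct vertices is at most `256` times the sum over
4-sets and ordered pairs of perfect matchings. -/
theorem sum_tuples_le (g : Finset (Fin n) → Finset (Sym2 (Fin n)) × Finset (Sym2 (Fin n)) → ℝ)
    (hg : ∀ S p, 0 ≤ g S p) :
    ∑ a : Fin n, ∑ b : Fin n, ∑ c : Fin n, ∑ e : Fin n,
        (if Dist4 a b c e then g {a, b, c, e} (pmOf a b c e) else 0)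
      ≤ 256 * ∑ S ∈ powersetCard 4 (univ : Finset (Fin n)), ∑ p ∈ pmPairs S, g S p := by
  classical
  -- rewrite the left side as a sum over a filtered product
  set T : Finset (Fin n × Fin n × Fin n × Fin n) :=
    univ.filter (fun t => Dist4 t.1 t.2.1 t.2.2.1 t.2.2.2) with hT
  have hL : ∑ a : Fin n, ∑ b : Fin n, ∑ c : Fin n, ∑ e : Fin n,
        (if Dist4 a b c e then g {a, b, c, e} (pmOf a b c e) else 0)
      = ∑ t ∈ T, g {t.1, t.2.1, t.2.2.1, t.2.2.2} (pmOf t.1 t.2.1 t.2.2.1 t.2.2.2) := by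
    rw [hT, Finset.sum_filter, Fintype.sum_prod_type]
    apply Finset.sum_congr rfl; intro a _
    rw [Fintype.sum_prod_type]
    apply Finset.sum_congr rfl; intro b _
    rw [Fintype.sum_prod_type]
  rw [hL, Finset.sum_sigma' (powersetCard 4 (univ : Finset (Fin n))) pmPairs (fun S p => g S p)]
  set Y := (powersetCard 4 (univ : Finset (Fin n))).sigma pmPairs with hY
  let φ : Fin n × Fin n × Fin n × Fin n →
      (Σ _ : Finset (Fin n), Finset (Sym2 (Fin n)) × Finset (Sym2 (Fin n))) :=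
    fun t => ⟨{t.1, t.2.1, t.2.2.1, t.2.2.2}, pmOf t.1 t.2.1 t.2.2.1 t.2.2.2⟩
  have hmaps : ∀ t ∈ T, φ t ∈ Y := by
    intro t ht
    rw [hT, Finset.mem_filter] at ht
    rw [hY, Finset.mem_sigma]
    exact ⟨Finset.mem_powersetCard.mpr ⟨Finset.subset_univ _, card_four ht.2⟩, pmOf_mem ht.2⟩
  rw [← Finset.sum_fiberwise_of_maps_to hmaps, Finset.mul_sum]
  apply Finset.sum_le_sum
  intro y hy
  have h1 : ∑ t ∈ T.filter (fun t => φ t = y),
      g {t.1, t.2.1, t.2.2.1, t.2.2.2} (pmOf t.1 t.2.1 t.2.2.1 t.2.2.2)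
      = ∑ _t ∈ T.filter (fun t => φ t = y), g y.1 y.2 := by
    apply Finset.sum_congr rfl
    intro t ht
    rw [← (Finset.mem_filter.mp ht).2]
  rw [h1, Finset.sum_const, nsmul_eq_mul]
  apply mul_le_mul_of_nonneg_right _ (hg _ _)
  have hcardS : y.1.card = 4 := by
    rw [hY, Finset.mem_sigma] at hy
    exact (Finset.mem_powersetCard.mp hy.1).2
  have hsub : T.filter (fun t => φ t = y) ⊆ y.1 ×ˢ y.1 ×ˢ y.1 ×ˢ y.1 := by
    intro t ht
    have h2 := (Finset.mem_filter.mp ht).2
    have h3 : ({t.1, t.2.1, t.2.2.1, t.2.2.2} : Finset (Fin n)) = y.1 := by rw [← h2]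
    simp only [Finset.mem_product, ← h3, Finset.mem_insert, Finset.mem_singleton]
    simp
  have h4 := Finset.card_le_card hsub
  simp only [Finset.card_product, hcardS] at h4
  have h5 : (T.filter (fun t => φ t = y)).card ≤ 256 := by omega
  exact_mod_cast h5

end Tuples

end P335h14
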